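import Crest.Agent.R162.Defs

/-! Row 162, block I: second order Taylor expansion against a Gaussian, and averages. -/

set_option autoImplicit false

open scoped ENNReal NNReal Topology
open Set Filter MeasureTheory Metric ProbabilityTheory

noncomputable section
namespace Crest.Agent.R162.I

theorem taylor2 {g g' g'' : ℝ → ℝ} (h1 : ∀ y, HasDerivAt g (g' y) y) (h2 : ∀ y, HasDerivAt g' (g'' y) y)
    (h3 : Continuous g'') (x w : ℝ) :
    g (x + w) = g x + w * g' x + w ^ 2 * ∫ θ in (0 : ℝ)..1, (1 - θ) * g'' (x + θ * w) := by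
  have hd : ∀ θ : ℝ, HasDerivAt (fun θ : ℝ => g (x + θ * w) + (1 - θ) * w * g' (x + θ * w))
      (w ^ 2 * ((1 - θ) * g'' (x + θ * w))) θ := by
    intro θ
    have e : HasDerivAt (fun θ : ℝ => x + θ * w) w θ := by
      simpa using ((hasDerivAt_id θ).mul_const w).const_add x
    have a1 := (h1 _).comp θ e
    have a2 := ((((hasDerivAt_id θ).const_sub 1).mul_const w).mul ((h2 _).comp θ e))
    refine (a1.add a2).congr_deriv ?_
    simp only [id, Function.comp]
    ring
  have := intervalIntegral.integral_eq_sub_of_hasDerivAt (a := 0) (b := 1) (fun θ _ => hd θ)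
    (Continuous.intervalIntegrable (by fun_prop) _ _)
  rw [intervalIntegral.integral_const_mul] at this
  rw [this]
  simp

theorem gauss_taylor {κ C : ℝ} (hκ : 0 < κ) {g g' g'' : ℝ → ℝ} (h1 : ∀ y, HasDerivAt g (g' y) y)
    (h2 : ∀ y, HasDerivAt g' (g'' y) y) (h3 : Continuous g'') (hC : ∀ y, |g'' y| ≤ C) (x : ℝ) :
    Tendsto (fun h : ℝ => h⁻¹ * (∫ w, g (x + w) ∂gaussianReal 0 (κ * h).toNNReal - g x)) (𝓝[>] 0)
      (𝓝 (κ / 2 * g'' x)) ∧
    ∀ h : ℝ, 0 < h → |h⁻¹ * (∫ w, g (x + w) ∂gaussianReal 0 (κ * h).toNNReal - g x)| ≤ κ * C := by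
  set γ := gaussianReal 0 κ.toNNReal
  let R : ℝ → ℝ := fun w => ∫ θ in (0 : ℝ)..1, (1 - θ) * g'' (x + θ * w)
  have hR : Continuous R :=
    intervalIntegral.continuous_parametric_intervalIntegral_of_continuous' (by fun_prop) _ _
  have hRC : ∀ w, |R w| ≤ C := fun w => by
    have := intervalIntegral.norm_integral_le_of_norm_le_const (a := 0) (b := 1) (C := C)
      (f := fun θ => (1 - θ) * g'' (x + θ * w)) fun θ hθ => by
        rw [uIoc_of_le zero_le_one] at hθ
        rw [norm_mul, Real.norm_of_nonneg (sub_nonneg.2 hθ.2)]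
        exact (mul_le_of_le_one_left (norm_nonneg _) (by linarith [hθ.1])).trans (hC _)
    simpa using this
  have hR0 : R 0 = g'' x / 2 := by
    simp only [R, mul_zero, add_zero, intervalIntegral.integral_mul_const]
    rw [intervalIntegral.integral_sub (by simp) (by simp)]
    simp only [intervalIntegral.integral_const, integral_id]
    norm_num
    ring
  have i1 : Integrable (fun n : ℝ => n) γ := (memLp_id_gaussianReal 1).integrable le_rfl
  have i2 : Integrable (fun n : ℝ => n ^ 2) γ := (memLp_id_gaussianReal 2).integrable_sq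
  have m1 : ∫ n, n ∂γ = 0 := integral_id_gaussianReal
  have m2 : ∫ n, n ^ 2 ∂γ = κ := by
    have := variance_id_gaussianReal (μ := 0) (v := κ.toNNReal)
    rw [variance_of_integral_eq_zero (by fun_prop) (by simp), Real.coe_toNNReal _ hκ.le] at this
    exact this
  have hb : ∀ c n : ℝ, ‖n ^ 2 * R (c * n)‖ ≤ n ^ 2 * C := fun c n => by
    rw [norm_mul, Real.norm_of_nonneg (sq_nonneg n)]
    exact mul_le_mul_of_nonneg_left (hRC _) (sq_nonneg n)
  have i3 : ∀ c : ℝ, Integrable (fun n : ℝ => n ^ 2 * R (c * n)) γ := fun c =>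
    (i2.mul_const C).mono' (Continuous.aestronglyMeasurable (by fun_prop)) (Eventually.of_forall (hb c))
  have key : ∀ h : ℝ, 0 < h → h⁻¹ * (∫ w, g (x + w) ∂gaussianReal 0 (κ * h).toNNReal - g x) =
      ∫ n, n ^ 2 * R (√h * n) ∂γ := by
    intro h hh
    have e : gaussianReal 0 (κ * h).toNNReal = γ.map (√h * ·) := by
      rw [gaussianReal_map_const_mul, mul_zero]
      congr 1
      ext
      simp [Real.coe_toNNReal _ hκ.le, Real.coe_toNNReal _ (mul_pos hκ hh).le, Real.sq_sqrt hh.le, mul_comm]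
    have hg : Continuous g := continuous_iff_continuousAt.2 fun y => (h1 y).continuousAt
    rw [e, integral_map (by fun_prop) (Continuous.aestronglyMeasurable (by fun_prop))]
    have e2 : ∀ n : ℝ, g (x + √h * n) = g x + (√h * g' x) * n + h * (n ^ 2 * R (√h * n)) := fun n => by
      rw [taylor2 h1 h2 h3, mul_pow, Real.sq_sqrt hh.le]
      ring
    simp only [e2]
    rw [integral_add (f := fun n => g x + √h * g' x * n) ((integrable_const _).add (i1.const_mul _))
        ((i3 _).const_mul _),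
      integral_add (integrable_const _) (i1.const_mul _), integral_const_mul, integral_const_mul, m1]
    simp [hh.ne']
  refine ⟨?_, fun h hh => ?_⟩
  · refine Tendsto.congr' (eventually_mem_nhdsWithin.mono fun h hh => (key h hh).symm) ?_
    have e : κ / 2 * g'' x = ∫ n, n ^ 2 * R 0 ∂γ := by
      rw [integral_mul_const, m2, hR0]; ring
    rw [e]
    refine tendsto_integral_filter_of_dominated_convergence (fun n => n ^ 2 * C)
      (Eventually.of_forall fun h => (i3 _).1) (Eventually.of_forall fun h => Eventually.of_forall (hb _))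
      (i2.mul_const C) (Eventually.of_forall fun n => ?_)
    have : Continuous fun h : ℝ => n ^ 2 * R (√h * n) := by fun_prop
    simpa using (this.tendsto 0).mono_left nhdsWithin_le_nhds
  · rw [key h hh, ← m2, ← integral_mul_const]
    exact norm_integral_le_of_norm_le (i2.mul_const C) (Eventually.of_forall (hb _))

theorem avg_le {k : ℝ → ℝ} {t r C : ℝ} (h : t < r) (hk : ∀ u ∈ Ioc t r, |k u| ≤ C) :
    |(r - t)⁻¹ * ∫ u in t..r, k u| ≤ C := by
  have := intervalIntegral.norm_integral_le_of_norm_le_const (a := t) (b := r) (C := C) (f := k)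
    fun u hu => hk u (by rwa [uIoc_of_le h.le] at hu)
  rw [abs_of_pos (sub_pos.2 h), Real.norm_eq_abs] at this
  rwa [abs_mul, abs_of_pos (inv_pos.2 (sub_pos.2 h)), inv_mul_le_iff₀ (sub_pos.2 h), mul_comm]

theorem avg_tendsto {k : ℝ → ℝ → ℝ} {t T : ℝ} (h : t < T)
    (hk : ContinuousOn (fun p : ℝ × ℝ => k p.1 p.2) (Icc t T ×ˢ Icc t T)) :
    Tendsto (fun r => (r - t)⁻¹ * ∫ u in t..r, k r u) (𝓝[>] t) (𝓝 (k t t)) := by
  refine Metric.tendsto_nhds.2 fun ε hε => ?_
  obtain ⟨δ, hδ, H⟩ := Metric.continuousWithinAt_iff.1 (hk (t, t) ⟨⟨le_rfl, h.le⟩, le_rfl, h.le⟩) (ε / 2)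
    (half_pos hε)
  filter_upwards [Ioo_mem_nhdsGT (lt_min h (lt_add_of_pos_right t hδ))] with r hr
  have h1 := hr.1
  obtain ⟨h2, h3⟩ := lt_min_iff.1 hr.2
  have hi : IntervalIntegrable (k r) volume t r := by
    refine ContinuousOn.intervalIntegrable_of_Icc h1.le ?_
    exact hk.comp (f := fun u => (r, u)) (by fun_prop) fun u hu => ⟨⟨h1.le, h2.le⟩, hu.1, hu.2.trans h2.le⟩
  have := avg_le (k := fun u => k r u - k t t) (C := ε / 2) h1 fun u hu => by
    refine (H (x := (r, u)) ⟨⟨h1.le, h2.le⟩, hu.1.le, hu.2.trans h2.le⟩ ?_).le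
    rw [Prod.dist_eq, max_lt_iff, Real.dist_eq, Real.dist_eq, abs_of_pos (sub_pos.2 h1),
      abs_of_pos (sub_pos.2 hu.1)]
    constructor <;> linarith [hu.2]
  rw [intervalIntegral.integral_sub hi (by simp), intervalIntegral.integral_const, mul_sub, smul_eq_mul,
    inv_mul_cancel_left₀ (sub_pos.2 h1).ne'] at this
  exact this.trans_lt (half_lt_self hε)

end Crest.Agent.R162.I
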