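import Crest.Agent.R162.I.Acc
import Crest.Agent.R162.I.Gauss

/-! Row 162, block I: Dynkin's formula. -/

set_option autoImplicit false

open scoped ENNReal NNReal Topology
open Set Filter MeasureTheory Metric

noncomputable section
namespace Crest.Agent.R162.I

variable {κ : ℝ} {μ : Measure Path} {J : Jet ℝ} {t₀ T s : ℝ} {τ : Path → ℝ} {ω : Path}

/-- the compensated process -/
def V (J : Jet ℝ) (κ a t : ℝ) (ω : Path) : ℝ := J.val t ω - ∫ u in a..t, J.gen κ u ω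

theorem cont_at {α : Type} [TopologicalSpace α] {f : ℝ → ℝ → Path → ℝ} (h0 : 0 ≤ t₀)
    (hf : ∀ t ∈ Icc t₀ T, ∀ x ω, CtsAt f t x ω) {a b : α → ℝ} {c : α → Path} (ha : Continuous a)
    (hb : Continuous b) (hc : Continuous c) {S : Set α} (hS : ∀ p ∈ S, a p ∈ Icc t₀ T) :
    ContinuousOn (fun p => f (a p) (b p) (c p)) S := fun p hp =>
  ContinuousWithinAt.comp (f := fun p => (a p, b p, c p)) (hf _ (hS p hp) _ _)
    (Continuous.continuousWithinAt (by fun_prop)) fun q hq => ⟨h0.trans (hS q hq).1, trivial⟩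

theorem cont_val (hJ : J.Ok t₀ T) :
    ContinuousOn (fun p : ℝ × Path => J.val p.1 p.2) (Icc t₀ T ×ˢ univ) :=
  cont_at hJ.nonneg (fun t ht x ω => (hJ.loc t ht x ω).cf) continuous_fst (by fun_prop) continuous_snd
    fun _ hp => hp.1

theorem cont_gen (hJ : J.Ok t₀ T) :
    ContinuousOn (fun p : ℝ × Path => J.gen κ p.1 p.2) (Icc t₀ T ×ˢ univ) :=
  (cont_at hJ.nonneg (fun t ht x ω => (hJ.loc t ht x ω).cs) continuous_fst (by fun_prop) continuous_snd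
    fun _ hp => hp.1).add ((cont_at hJ.nonneg (fun t ht x ω => (hJ.loc t ht x ω).cxx) continuous_fst
      (b := fun p : ℝ × Path => p.2 p.1) (by fun_prop) continuous_snd fun _ hp => hp.1).const_smul (κ / 2))

theorem cont_int (hJ : J.Ok t₀ T) {a : ℝ} (ha : a ∈ Icc t₀ T) :
    ContinuousOn (fun p : ℝ × Path => ∫ u in a..p.1, J.gen κ u p.2) (Icc t₀ T ×ˢ univ) :=
  cont_acc ordConnected_Icc (ρ := fun u => max t₀ (min u T)) (by fun_prop)
    (fun _ => ⟨le_max_left _ _, max_le (ha.1.trans ha.2) (min_le_right _ _)⟩)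
    (fun u hu => by rw [min_eq_left hu.2, max_eq_right hu.1]) ha (cont_gen hJ)

theorem cont_V (hJ : J.Ok t₀ T) {a : ℝ} (ha : a ∈ Icc t₀ T) :
    ContinuousOn (fun p : ℝ × Path => V J κ a p.1 p.2) (Icc t₀ T ×ˢ univ) :=
  (cont_val hJ).sub (cont_int hJ ha)

theorem ii_gen (hJ : J.Ok t₀ T) {a b : ℝ} (ha : a ∈ Icc t₀ T) (hb : b ∈ Icc t₀ T) (ω : Path) :
    IntervalIntegrable (fun u => J.gen κ u ω) volume a b :=
  ContinuousOn.intervalIntegrable ((cont_gen hJ).comp (f := fun u => (u, ω)) (by fun_prop)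
    fun _ hu => ⟨uIcc_subset_Icc ha hb hu, trivial⟩)

theorem meas_of_cont {α : Type} [MeasurableSpace α] {F : ℝ × Path → ℝ} {S : Set (ℝ × Path)}
    (hF : ContinuousOn F S) {g : α → ℝ × Path} (hg : Measurable g) (hS : ∀ a, g a ∈ S) :
    Measurable fun a => F (g a) :=
  (continuousOn_iff_continuous_domRestrict.1 hF).measurable.comp (hg.subtype_mk (h := hS))

theorem cont_spl (s : ℝ) (ω : Path) : Continuous (spl s ω) :=
  continuous_spl.comp (f := fun ω' => (s, ω, ω')) (by fun_prop)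

theorem cont_VT (hJ : J.Ok t₀ T) {a t : ℝ} (ha : a ∈ Icc t₀ T) (ht : t ∈ Icc t₀ T) : Continuous (V J κ a t) :=
  (cont_V hJ ha).comp_continuous (f := fun ω => (t, ω)) (by fun_prop) fun _ => ⟨ht, trivial⟩

theorem bd (hJ : J.Ok t₀ T) (κ : ℝ) : ∃ C, (∀ t ∈ Icc t₀ T, ∀ x ω, J.Bd t x ω C) ∧
    (∀ t ∈ Icc t₀ T, ∀ ω, |J.gen κ t ω| ≤ C) ∧
    (∀ a ∈ Icc t₀ T, ∀ t ∈ Icc t₀ T, ∀ ω, |∫ u in a..t, J.gen κ u ω| ≤ C ∧ |V J κ a t ω| ≤ C) := by
  obtain ⟨C, hC⟩ := hJ.bd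
  have h1 : ∀ t ∈ Icc t₀ T, ∀ ω, |J.gen κ t ω| ≤ C + |κ / 2| * C := fun t ht ω => by
    obtain ⟨-, a, -, b⟩ := hC t ht (ω t) ω
    refine (norm_add_le (J.s t (ω t) ω) _).trans (add_le_add a ?_)
    rw [norm_smul]
    exact mul_le_mul_of_nonneg_left b (norm_nonneg _)
  have h2 : ∀ a ∈ Icc t₀ T, ∀ t ∈ Icc t₀ T, ∀ ω, |∫ u in a..t, J.gen κ u ω| ≤ (C + |κ / 2| * C) * (T - t₀) :=
    fun a ha t ht ω => (intervalIntegral.norm_integral_le_of_norm_le_const (f := fun u => J.gen κ u ω) fun u hu =>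
      h1 u (uIcc_subset_Icc ha ht (uIoc_subset_uIcc hu)) ω).trans (mul_le_mul_of_nonneg_left
        (abs_le.2 (show -(T - t₀) ≤ _ ∧ _ from ⟨by linarith [ha.2, ht.1], by linarith [ha.1, ht.2]⟩)) ((abs_nonneg _).trans (h1 t ht ω)))
  set D := C + |κ / 2| * C
  refine ⟨max (max C D) (max (D * (T - t₀)) (C + D * (T - t₀))), fun t ht x ω => ?_, fun t ht ω => ?_,
    fun a ha t ht ω => ⟨?_, ?_⟩⟩
  · obtain ⟨a, b, c, d⟩ := hC t ht x ω
    exact ⟨a.trans (by simp), b.trans (by simp), c.trans (by simp), d.trans (by simp)⟩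
  · exact (h1 t ht ω).trans (by simp)
  · exact (h2 a ha t ht ω).trans (by simp)
  · exact ((abs_sub _ _).trans (add_le_add (hC t ht _ ω).1 (h2 a ha t ht ω))).trans (by simp)

theorem gen_agr (hJ : J.Ok t₀ T) {t : ℝ} (ht : t₀ ≤ t) {ω ω' : Path} (h : Agr t ω ω') :
    J.gen κ t ω' = J.gen κ t ω := by
  simp only [Jet.gen, h t le_rfl, hJ.as t _ ω ω' ht h, hJ.axx t _ ω ω' ht h]

theorem V_agr (hJ : J.Ok t₀ T) {a t : ℝ} (ha : t₀ ≤ a) (ht : a ≤ t) {ω ω' : Path} (h : Agr t ω ω') :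
    V J κ a t ω' = V J κ a t ω := by
  simp only [V, Jet.val, h t le_rfl, hJ.af t _ ω ω' (ha.trans ht) h]
  congr 1
  refine intervalIntegral.integral_congr fun u hu => ?_
  rw [uIcc_of_le ht] at hu
  exact gen_agr hJ (ha.trans hu.1) fun r hr => h r (hr.trans hu.2)

theorem integrable_of_bd (hμ : Wie κ μ) {F : Path → ℝ} (hF : Measurable F) {C : ℝ} (hC : ∀ ω, |F ω| ≤ C) :
    Integrable F μ :=
  have := hμ.prob
  (integrable_const C).mono' hF.aestronglyMeasurable (Eventually.of_forall hC)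

theorem tower (hμ : Wie κ μ) (hτ : Stop τ) (h : ∀ ω', s ≤ τ (spl s ω ω')) {F : Path → ℝ} (hF : Measurable F)
    {C : ℝ} (hC : ∀ ω, |F ω| ≤ C) :
    ∫ ω', F (spl s ω ω') ∂μ = ∫ ω', ∫ ω'', F (spl (τ (spl s ω ω')) (spl s ω ω') ω'') ∂μ ∂μ := by
  have := hμ.prob
  have hm := hμ.markov _ (hτ.after ω h)
  have hG : Measurable fun ω' => F (spl s ω ω') := hF.comp (cont_spl s ω).measurable
  have e := integral_map (μ := μ.prod μ) hm.measurable.aemeasurable hG.aestronglyMeasurable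
  rw [hm.map_eq, integral_prod (fun p : Path × Path => F (spl s ω (spl (τ (spl s ω p.1) - s) p.1 p.2)))
    ((integrable_const C).mono' (hG.comp hm.measurable).aestronglyMeasurable
    (Eventually.of_forall fun _ => hC _))] at e
  rw [e]
  congr 1
  funext ω'
  congr 1
  funext ω''
  rw [← spl_spl s (sub_nonneg.2 (h ω')), add_sub_cancel]

/-- the increment of `V`, minus the spatial increment -/
theorem V_sub (hJ : J.Ok t₀ T) {a t r : ℝ} (ha : a ∈ Icc t₀ T) (ht : t ∈ Icc t₀ T) (hr : r ∈ Icc t T) (η : Path) :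
    V J κ a r η - V J κ a t η - (J.f t (η r) η - J.f t (η t) η) =
      ∫ u in t..r, (J.s u (η r) η - J.gen κ u η) := by
  have hI : ∀ u ∈ Icc t r, u ∈ Icc t₀ T := fun u hu => ⟨ht.1.trans hu.1, hu.2.trans hr.2⟩
  have hr' := hI r ⟨hr.1, le_rfl⟩
  have i1 : IntervalIntegrable (fun u => J.s u (η r) η) volume t r :=
    ContinuousOn.intervalIntegrable_of_Icc hr.1 (cont_at hJ.nonneg (fun t ht x ω => (hJ.loc t ht x ω).cs)
      continuous_id continuous_const continuous_const hI)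
  rw [intervalIntegral.integral_sub i1 (ii_gen hJ ht hr' η),
    intervalIntegral.integral_eq_sub_of_hasDeriv_right_of_le hr.1 (f := fun u => J.f u (η r) η)
      (cont_at hJ.nonneg (fun t ht x ω => (hJ.loc t ht x ω).cf) continuous_id continuous_const
        continuous_const hI)
      (fun u hu => (hJ.loc u (hI u (Ioo_subset_Icc_self hu)) _ _).ds.mono Ioi_subset_Ici_self) i1,
    ← intervalIntegral.integral_interval_sub_left (ii_gen hJ ha hr' η) (ii_gen hJ ha ht η)]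
  simp only [V, Jet.val]
  ring

theorem loc_slope (hκ : 0 < κ) (hμ : Wie κ μ) (hJ : J.Ok t₀ T) : ∃ C, ∀ a t, t₀ ≤ a → a ≤ t → t < T → ∀ ω₁,
    Tendsto (fun r => (r - t)⁻¹ * (∫ ω'', V J κ a r (spl t ω₁ ω'') ∂μ - V J κ a t ω₁)) (𝓝[>] t) (𝓝 0) ∧
    ∀ r ∈ Ioc t T, |(r - t)⁻¹ * (∫ ω'', V J κ a r (spl t ω₁ ω'') ∂μ - V J κ a t ω₁)| ≤ C := by
  have := hμ.prob
  obtain ⟨C, b1, b2, b3⟩ := bd hJ κ
  refine ⟨C + C + κ * C, fun a t h1 h2 h3 ω₁ => ?_⟩
  have ha : a ∈ Icc t₀ T := ⟨h1, h2.trans h3.le⟩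
  have ht : t ∈ Icc t₀ T := ⟨h1.trans h2, h3.le⟩
  have hI : ∀ u ∈ Icc t T, u ∈ Icc t₀ T := fun u hu => ⟨ht.1.trans hu.1, hu.2⟩
  have hg : Continuous fun y => J.f t y ω₁ :=
    continuous_iff_continuousAt.2 fun y => (hJ.loc t ht y ω₁).dx.continuousAt
  obtain ⟨g1, g2⟩ := gauss_taylor hκ (fun y => (hJ.loc t ht y ω₁).dx) (fun y => (hJ.loc t ht y ω₁).dxx)
    (continuousOn_univ.1 (cont_at hJ.nonneg (fun t ht x ω => (hJ.loc t ht x ω).cxx) continuous_const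
      continuous_id continuous_const fun _ _ => ht)) (fun y => (b1 t ht y ω₁).2.2.2) (ω₁ t)
  let D : ℝ → Path → ℝ := fun r ω'' => (r - t)⁻¹ *
    (V J κ a r (spl t ω₁ ω'') - V J κ a t ω₁ - (J.f t (spl t ω₁ ω'' r) ω₁ - J.f t (ω₁ t) ω₁))
  have hD : ∀ r ∈ Ioc t T, ∀ ω'', D r ω'' = (r - t)⁻¹ *
      ∫ u in t..r, (J.s u (spl t ω₁ ω'' r) (spl t ω₁ ω'') - J.gen κ u (spl t ω₁ ω'')) := fun r hr ω'' => by
    have e := agr_spl t ω₁ ω''
    rw [← V_sub hJ ha ht ⟨hr.1.le, hr.2⟩, V_agr hJ h1 h2 e, hJ.af t _ _ _ ht.1 e, hJ.af t _ _ _ ht.1 e,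
      e t le_rfl]
  have hs := cont_spl t ω₁
  have hB : ∀ r, Continuous fun ω'' => J.f t (spl t ω₁ ω'' r) ω₁ := fun r => hg.comp (by fun_prop)
  have hV : ∀ r ∈ Ioc t T, Continuous fun ω'' => V J κ a r (spl t ω₁ ω'') := fun r hr =>
    (cont_VT hJ ha (hI r ⟨hr.1.le, hr.2⟩)).comp hs
  have hDm : ∀ r ∈ Ioc t T, Continuous (D r) := fun r hr =>
    continuous_const.mul (((hV r hr).sub continuous_const).sub ((hB r).sub continuous_const))
  have hDb : ∀ r ∈ Ioc t T, ∀ ω'', |D r ω''| ≤ C + C := fun r hr ω'' => by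
    rw [hD r hr]
    refine avg_le hr.1 fun u hu => (abs_sub _ _).trans ?_
    have hu' := hI u ⟨hu.1.le, hu.2.trans hr.2⟩
    exact add_le_add (b1 u hu' _ _).2.1 (b2 u hu' _)
  have hev : ∀ᶠ r in 𝓝[>] t, r ∈ Ioc t T := Ioc_mem_nhdsGT h3
  have hDt : ∀ ω'', Tendsto (fun r => D r ω'') (𝓝[>] t) (𝓝 (-(κ / 2 * J.xx t (ω₁ t) ω₁))) := fun ω'' => by
    have e := agr_spl t ω₁ ω''
    have := avg_tendsto (k := fun r u => J.s u (spl t ω₁ ω'' r) (spl t ω₁ ω'') - J.gen κ u (spl t ω₁ ω'')) h3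
      ((cont_at hJ.nonneg (fun t ht x ω => (hJ.loc t ht x ω).cs) continuous_snd (by fun_prop)
        continuous_const fun p hp => hI _ hp.2).sub ((cont_gen hJ).comp (f := fun p : ℝ × ℝ => (p.2, spl t ω₁ ω''))
          (by fun_prop) fun p hp => ⟨hI _ hp.2, trivial⟩))
    refine Tendsto.congr' (hev.mono fun r hr => (hD r hr ω'').symm) ?_
    convert this using 2
    simp only [Jet.gen, e t le_rfl, hJ.axx t _ _ _ ht.1 e, smul_eq_mul]
    ring
  have key : ∀ r ∈ Ioc t T, (r - t)⁻¹ * (∫ ω'', V J κ a r (spl t ω₁ ω'') ∂μ - V J κ a t ω₁) =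
      ∫ ω'', D r ω'' ∂μ + (r - t)⁻¹ * (∫ w, J.f t (ω₁ t + w) ω₁
        ∂ProbabilityTheory.gaussianReal 0 (κ * (r - t)).toNNReal - J.f t (ω₁ t) ω₁) := fun r hr => by
    have i1 := integrable_of_bd hμ (hV r hr).measurable fun _ => (b3 a ha r (hI r ⟨hr.1.le, hr.2⟩) _).2
    have i2 := integrable_of_bd hμ (hB r).measurable fun _ => (b1 t ht _ _).1
    have e : ∫ w, J.f t (ω₁ t + w) ω₁ ∂ProbabilityTheory.gaussianReal 0 (κ * (r - t)).toNNReal =
        ∫ ω'', J.f t (spl t ω₁ ω'' r) ω₁ ∂μ := by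
      rw [← hμ.law _ (sub_pos.2 hr.1).le, integral_map (f := fun w => J.f t (ω₁ t + w) ω₁)
        (Continuous.aemeasurable (by fun_prop)) (Continuous.aestronglyMeasurable (hg.comp (by fun_prop)))]
      refine integral_congr_ae (hμ.zero.mono fun ω'' h => ?_)
      simp [spl, h 0 le_rfl, min_eq_right hr.1.le, max_eq_left (sub_pos.2 hr.1).le]
    rw [e, integral_const_mul, integral_sub (f := fun ω'' => V J κ a r (spl t ω₁ ω'') - V J κ a t ω₁)
      (g := fun ω'' => J.f t (spl t ω₁ ω'' r) ω₁ - J.f t (ω₁ t) ω₁) (i1.sub (integrable_const _)) (i2.sub (integrable_const _)), integral_sub i1 (integrable_const _),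
      integral_sub i2 (integrable_const _)]
    simp only [integral_const, probReal_univ, one_smul]
    ring
  refine ⟨Tendsto.congr' (hev.mono fun r hr => (key r hr).symm) ?_, fun r hr => ?_⟩
  · have t1 := tendsto_integral_filter_of_dominated_convergence (μ := μ) (fun _ => C + C)
      (hev.mono fun r hr => (hDm r hr).aestronglyMeasurable)
      (hev.mono fun r hr => Eventually.of_forall (hDb r hr)) (integrable_const _) (Eventually.of_forall hDt)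
    have t2 : Tendsto (fun r => r - t) (𝓝[>] t) (𝓝[>] 0) :=
      tendsto_nhdsWithin_iff.2 ⟨by
        simpa using ((continuous_sub_right t).tendsto t).mono_left nhdsWithin_le_nhds,
        hev.mono fun r hr => sub_pos.2 hr.1⟩
    simpa using t1.add (g1.comp t2)
  · rw [key r hr]
    refine (abs_add_le _ _).trans (add_le_add ?_ (g2 _ (sub_pos.2 hr.1)))
    simpa using norm_integral_le_of_norm_le_const (μ := μ) (f := D r) (Eventually.of_forall (hDb r hr))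

theorem det (hκ : 0 < κ) (hμ : Wie κ μ) (hJ : J.Ok t₀ T) {a : ℝ} (h1 : t₀ ≤ a) (h2 : a ≤ s) (h3 : s ≤ T)
    (ω : Path) : ∫ ω', V J κ a T (spl s ω ω') ∂μ = V J κ a s ω := by
  have := hμ.prob
  obtain ⟨C, -, -, b3⟩ := bd hJ κ
  obtain ⟨D, hD⟩ := loc_slope hκ hμ hJ
  have ha : a ∈ Icc t₀ T := ⟨h1, h2.trans h3⟩
  have hI : ∀ u ∈ Icc s T, u ∈ Icc t₀ T := fun u hu => ⟨(h1.trans h2).trans hu.1, hu.2⟩
  have hs := cont_spl s ω
  have hm : ∀ t ∈ Icc t₀ T, Continuous fun ω' => V J κ a t (spl s ω ω') := fun t ht => (cont_VT hJ ha ht).comp hs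
  have := constant_of_has_deriv_right_zero (f := fun t => ∫ ω', V J κ a t (spl s ω ω') ∂μ) (a := s) (b := T)
    (continuousOn_of_dominated (bound := fun _ => C) (fun t ht => (hm t (hI t ht)).aestronglyMeasurable)
      (fun t ht => Eventually.of_forall fun _ => (b3 a ha t (hI t ht) _).2) (integrable_const _)
      (Eventually.of_forall fun ω' => (cont_V hJ ha).comp (f := fun t => (t, spl s ω ω')) (by fun_prop)
        fun t ht => ⟨hI t ht, trivial⟩)) (fun t ht => ?_) T ⟨h3, le_rfl⟩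
  · simpa [V_agr hJ h1 h2 (agr_spl s ω _)] using this
  have ht' := hI t ⟨ht.1, ht.2.le⟩
  have hev : ∀ᶠ r in 𝓝[>] t, r ∈ Ioc t T := Ioc_mem_nhdsGT ht.2
  have hr' : ∀ r ∈ Ioc t T, r ∈ Icc t₀ T := fun r hr => ⟨ht'.1.trans hr.1.le, hr.2⟩
  have hE : ∀ r ∈ Ioc t T, Measurable fun ω' => ∫ ω'', V J κ a r (spl t (spl s ω ω') ω'') ∂μ := fun r hr =>
    (StronglyMeasurable.integral_prod_right' (f := fun p : Path × Path => V J κ a r (spl t (spl s ω p.1) p.2))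
      (((cont_VT hJ ha (hr' r hr)).comp (continuous_spl.comp (f := fun p : Path × Path => (t, spl s ω p.1, p.2))
        (by fun_prop))).stronglyMeasurable)).measurable
  refine HasDerivWithinAt.Ici_of_Ioi ((hasDerivWithinAt_iff_tendsto_slope' self_notMem_Ioi).2 ?_)
  have t1 := tendsto_integral_filter_of_dominated_convergence (μ := μ) (fun _ => D)
    (hev.mono fun r hr => (((hE r hr).sub (hm t ht').measurable).const_mul (r - t)⁻¹).aestronglyMeasurable)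
    (hev.mono fun r hr => Eventually.of_forall fun ω' => (hD a t h1 (h2.trans ht.1) ht.2 _).2 r hr)
    (integrable_const _) (Eventually.of_forall fun ω' => (hD a t h1 (h2.trans ht.1) ht.2 _).1)
  rw [integral_zero] at t1
  refine t1.congr' (hev.mono fun r hr => ?_)
  have i1 := integrable_of_bd hμ (hE r hr) (C := C) fun ω' => by
    simpa using norm_integral_le_of_norm_le_const (μ := μ) (f := fun ω'' => V J κ a r (spl t (spl s ω ω') ω''))
      (Eventually.of_forall fun _ => (b3 a ha r (hr' r hr) _).2)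
  have i2 := integrable_of_bd hμ (hm t ht').measurable fun _ => (b3 a ha t ht' _).2
  simp only [slope_def_field, Pi.sub_apply]
  rw [integral_const_mul, integral_sub i1 i2, tower hμ (Stop.const (hJ.nonneg.trans ht'.1)) (fun _ => ht.1)
    (cont_VT hJ ha (hr' r hr)).measurable fun _ => (b3 a ha r (hr' r hr) _).2, div_eq_inv_mul]

theorem ofReal_int_le {α : Type} [MeasurableSpace α] (m : Measure α) (f : α → ℝ) :
    ENNReal.ofReal (∫ a, f a ∂m) ≤ ∫⁻ a, ENNReal.ofReal (f a) ∂m := by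
  by_cases hf : Integrable f m
  · rw [integral_eq_lintegral_pos_part_sub_lintegral_neg_part hf]
    exact (ENNReal.ofReal_le_ofReal (sub_le_self _ ENNReal.toReal_nonneg)).trans ENNReal.ofReal_toReal_le
  · simp [integral_undef hf]

theorem dynkin_integrable (hμ : Wie κ μ) (hJ : J.Ok t₀ T) (hτ : After τ ω s T) (hs : t₀ ≤ s) :
    Integrable (fun ω' => J.val (τ (spl s ω ω')) (spl s ω ω')) μ ∧
      Integrable (fun ω' => ∫ t in s..τ (spl s ω ω'), J.gen κ t (spl s ω ω')) μ := by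
  obtain ⟨C, b1, -, b3⟩ := bd hJ κ
  have h1 : ∀ ω', τ (spl s ω ω') ∈ Icc t₀ T := fun ω' => ⟨hs.trans (hτ.le _), hτ.bdd _⟩
  have h2 : s ∈ Icc t₀ T := ⟨hs, (hτ.le ω).trans (hτ.bdd _)⟩
  have hm : Measurable fun ω' => (τ (spl s ω ω'), spl s ω ω') :=
    (hτ.stop.meas.comp (cont_spl s ω).measurable).prodMk (cont_spl s ω).measurable
  exact ⟨integrable_of_bd hμ (meas_of_cont (cont_val hJ) hm fun ω' => ⟨h1 ω', trivial⟩)
    fun ω' => (b1 _ (h1 ω') _ _).1, integrable_of_bd hμ (meas_of_cont (cont_int hJ h2) hm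
      fun ω' => ⟨h1 ω', trivial⟩) fun ω' => (b3 _ h2 _ (h1 ω') _).1⟩

theorem dynkin (hκ : 0 < κ) (hμ : Wie κ μ) (hJ : J.Ok t₀ T) (hτ : After τ ω s T) (hs : t₀ ≤ s) :
    ∫ ω', (J.val (τ (spl s ω ω')) (spl s ω ω') - ∫ t in s..τ (spl s ω ω'), J.gen κ t (spl s ω ω')) ∂μ =
      J.val s ω := by
  obtain ⟨C, -, -, b3⟩ := bd hJ κ
  have h2 : s ∈ Icc t₀ T := ⟨hs, (hτ.le ω).trans (hτ.bdd _)⟩
  have h3 : T ∈ Icc t₀ T := ⟨h2.1.trans h2.2, le_rfl⟩
  have e := det hκ hμ hJ hs le_rfl h2.2 ω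
  rw [tower hμ hτ.stop hτ.le (cont_VT hJ h2 h3).measurable fun _ => (b3 s h2 T h3 _).2] at e
  simp only [det hκ hμ hJ hs (hτ.le _) (hτ.bdd _)] at e
  simpa [V] using e

theorem dynkin_super (hκ : 0 < κ) (hμ : Wie κ μ) (hJ : J.Ok t₀ T) (hτ : After τ ω s T) (hs : t₀ ≤ s)
    (hg : ∀ ω', ∀ t ∈ Ioo s (τ (spl s ω ω')), J.gen κ t (spl s ω ω') ≤ 0) :
    ∫ ω', J.val (τ (spl s ω ω')) (spl s ω ω') ∂μ ≤ J.val s ω := by
  rw [← dynkin hκ hμ hJ hτ hs]
  obtain ⟨i1, i2⟩ := dynkin_integrable hμ hJ hτ hs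
  refine integral_mono i1 (i1.sub i2) fun ω' => (le_sub_self_iff _).2 ?_
  rw [intervalIntegral.integral_of_le (hτ.le ω'), integral_Ioc_eq_integral_Ioo]
  exact setIntegral_nonpos measurableSet_Ioo (hg ω')

theorem dynkin_le (hκ : 0 < κ) (hμ : Wie κ μ) (hJ : J.Ok t₀ T) (hτ : After τ ω s T) (hs : t₀ ≤ s)
    {F : Path → ℝ≥0∞} {h : ℝ → Path → ℝ≥0∞}
    (hg : ∀ ω', ∀ t ∈ Ioo s (τ (spl s ω ω')), J.gen κ t (spl s ω ω') ≤ 0 ∧
      h t (spl s ω ω') ≤ ENNReal.ofReal (-J.gen κ t (spl s ω ω')))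
    (hv : ∀ ω', 0 ≤ J.val (τ (spl s ω ω')) (spl s ω ω') ∧
      F (spl s ω ω') ≤ ENNReal.ofReal (J.val (τ (spl s ω ω')) (spl s ω ω'))) :
    EE μ ω s (fun ω₁ => F ω₁ + ∫⁻ t in Ioc s (τ ω₁), h t ω₁) ≤ ENNReal.ofReal (J.val s ω) := by
  obtain ⟨i1, i2⟩ := dynkin_integrable hμ hJ hτ hs
  have h2 : s ∈ Icc t₀ T := ⟨hs, (hτ.le ω).trans (hτ.bdd _)⟩
  have e : ∀ ω', -∫ t in s..τ (spl s ω ω'), J.gen κ t (spl s ω ω') =
      ∫ t in Ioo s (τ (spl s ω ω')), -J.gen κ t (spl s ω ω') := fun ω' => by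
    rw [intervalIntegral.integral_of_le (hτ.le ω'), integral_Ioc_eq_integral_Ioo, integral_neg]
  have h0 : ∀ ω', 0 ≤ -∫ t in s..τ (spl s ω ω'), J.gen κ t (spl s ω ω') := fun ω' =>
    e ω' ▸ setIntegral_nonneg measurableSet_Ioo fun t ht => neg_nonneg.2 (hg ω' t ht).1
  rw [← dynkin hκ hμ hJ hτ hs, ofReal_integral_eq_lintegral_ofReal
    (f := fun ω' => J.val (τ (spl s ω ω')) (spl s ω ω') - ∫ t in s..τ (spl s ω ω'), J.gen κ t (spl s ω ω'))
    (i1.sub i2)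
    (Eventually.of_forall fun ω' => add_nonneg (hv ω').1 (h0 ω'))]
  refine lintegral_mono fun ω' => ?_
  rw [sub_eq_add_neg, ENNReal.ofReal_add (hv ω').1 (h0 ω'), e, ofReal_integral_eq_lintegral_ofReal
    (f := fun t => -J.gen κ t (spl s ω ω'))
    (((ii_gen hJ h2 ⟨hs.trans (hτ.le _), hτ.bdd _⟩ _).1.mono_set Ioo_subset_Ioc_self).neg)
    (ae_restrict_of_forall_mem measurableSet_Ioo fun t ht => neg_nonneg.2 (hg ω' t ht).1)]
  beta_reduce
  rw [← Measure.restrict_congr_set Ioo_ae_eq_Ioc]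
  exact add_le_add (hv ω').2 (setLIntegral_mono' measurableSet_Ioo fun t ht => (hg ω' t ht).2)

theorem dynkin_ge (hκ : 0 < κ) (hμ : Wie κ μ) (hJ : J.Ok t₀ T) (hτ : After τ ω s T) (hs : t₀ ≤ s)
    {F : Path → ℝ≥0∞} {h : ℝ → Path → ℝ≥0∞}
    (hg : ∀ ω', ∀ t ∈ Ioo s (τ (spl s ω ω')),
      ENNReal.ofReal (-J.gen κ t (spl s ω ω')) ≤ h t (spl s ω ω'))
    (hv : ∀ ω', ENNReal.ofReal (J.val (τ (spl s ω ω')) (spl s ω ω')) ≤ F (spl s ω ω')) :
    ENNReal.ofReal (J.val s ω) ≤ EE μ ω s (fun ω₁ => F ω₁ + ∫⁻ t in Ioc s (τ ω₁), h t ω₁) := by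
  rw [← dynkin hκ hμ hJ hτ hs]
  refine (ofReal_int_le _ _).trans (lintegral_mono fun ω' => ?_)
  beta_reduce
  rw [sub_eq_add_neg, intervalIntegral.integral_of_le (hτ.le ω'), ← integral_neg,
    ← Measure.restrict_congr_set Ioo_ae_eq_Ioc]
  exact ENNReal.ofReal_add_le.trans (add_le_add (hv ω') ((ofReal_int_le _ _).trans
    (setLIntegral_mono' measurableSet_Ioo fun t ht => hg ω' t ht)))

end Crest.Agent.R162.I
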