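import Crest.Agent.R162.W

/-! Row 162, block I: hitting times. -/

set_option autoImplicit false

open scoped ENNReal NNReal Topology
open Set Filter MeasureTheory Metric

noncomputable section
namespace Crest.Agent.R162.I

variable {X : ℝ → Path → ℝ} {c s T : ℝ} {ω : Path}

theorem hit_bdd (X : ℝ → Path → ℝ) (c s T : ℝ) (ω : Path) : BddBelow ({t | t ∈ Icc s T ∧ c ≤ X t ω} ∪ {T}) :=
  (bddBelow_Icc.mono fun _ h => h.1).union bddBelow_singleton

theorem hitX_mem (hs : s ≤ T) : hitX X c s T ω ∈ Icc s T := by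
  exact ⟨le_csInf ⟨T, Or.inr rfl⟩ (by rintro t (h | rfl); exacts [h.1.1, hs]),
    csInf_le (hit_bdd X c s T ω) (Or.inr rfl)⟩

/-- Recipe: the set is bounded below by `min s T` and contains `T`; `csInf_le`. -/
theorem lt_of_lt_hitX {t : ℝ} (hs : s ≤ t) (ht : t < hitX X c s T ω) : X t ω < c := by
  by_contra hn
  have h1 : hitX X c s T ω ≤ T := csInf_le (hit_bdd X c s T ω) (Or.inr rfl)
  exact absurd ht (not_lt.2 (csInf_le (hit_bdd X c s T ω) (Or.inl ⟨⟨hs, ht.le.trans h1⟩, not_lt.1 hn⟩)))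

/-- Recipe: the set is closed (`ContinuousOn.preimage_isClosed_of_isClosed`), `IsClosed.csInf_mem`. -/
theorem le_hitX (hs : s ≤ T) (hX : ContinuousOn (fun t => X t ω) (Icc s T)) :
    hitX X c s T ω = T ∨ c ≤ X (hitX X c s T ω) ω := by
  have _ := hs
  have h1 : IsClosed ({t | t ∈ Icc s T ∧ c ≤ X t ω} ∪ {T}) :=
    (hX.preimage_isClosed_of_isClosed isClosed_Icc isClosed_Ici).union isClosed_singleton
  exact (h1.csInf_mem ⟨T, Or.inr rfl⟩ (hit_bdd X c s T ω)).symm.imp id fun h => h.2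

/-- Recipe: if `s < hitX`, pass to the limit from the left in `lt_of_lt_hitX` (`ContinuousWithinAt.closure_le`). -/
theorem hitX_le (hs : s ≤ T) (hX : ContinuousOn (fun t => X t ω) (Icc s T)) (h0 : X s ω ≤ c) :
    X (hitX X c s T ω) ω ≤ c := by
  have hm := hitX_mem (X := X) (c := c) (ω := ω) hs
  rcases hm.1.eq_or_lt with h | h
  · rwa [← h]
  · refine ContinuousWithinAt.closure_le (s := Ico s (hitX X c s T ω)) (f := fun t => X t ω) (g := fun _ => c)
      ?_ ((hX _ hm).mono fun t ht => ⟨ht.1, ht.2.le.trans hm.2⟩) continuousWithinAt_const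
      fun t ht => (lt_of_lt_hitX ht.1 ht.2).le
    rw [closure_Ico h.ne]
    exact ⟨h.le, le_rfl⟩

/-- Recipe: measurability by `measurable_of_Iic`: for `a < T`, `hitX ≤ a ↔ ∃ t ∈ Icc 0 a, σ ω ≤ t ∧ c ≤ X t ω`, and `{(u, ω) | ∃ t ∈ Icc 0 a, u ≤ t ∧ c ≤ X t ω}` is closed (`isClosedMap_snd_of_compactSpace` on the subtype `Icc 0 a`).  Galmarino: `σ ω' = σ ω`, then `le_hitX`, `lt_of_lt_hitX` on both paths. -/
theorem stop_hitX {σ : Path → ℝ} (hσ : Stop σ) (hσT : ∀ ω, σ ω ≤ T)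
    (hX : ContinuousOn (fun p : ℝ × Path => X p.1 p.2) (Ici 0 ×ˢ univ))
    (ha : ∀ t ω ω', 0 ≤ t → Agr t ω ω' → X t ω' = X t ω) : Stop fun ω => hitX X c (σ ω) T ω := by
  have hc : ∀ ω, ContinuousOn (fun t => X t ω) (Icc (σ ω) T) := fun ω =>
    hX.comp (f := fun t => (t, ω)) (by fun_prop) fun t ht => ⟨(hσ.nonneg ω).trans ht.1, trivial⟩
  have hm : ∀ ω, hitX X c (σ ω) T ω ∈ Icc (σ ω) T := fun ω => hitX_mem (hσT ω)
  have hle : ∀ ω t, σ ω ≤ t → c ≤ X t ω → hitX X c (σ ω) T ω ≤ t := fun ω t h1 h2 =>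
    not_lt.1 fun h => absurd (lt_of_lt_hitX h1 h) (not_lt.2 h2)
  refine ⟨measurable_of_Iic fun a => ?_, fun ω => (hσ.nonneg ω).trans (hm ω).1, fun ω ω' h => ?_⟩
  · by_cases haT : T ≤ a
    · convert MeasurableSet.univ
      exact eq_univ_of_forall fun ω => (hm ω).2.trans haT
    have h1 : IsClosed {q : Icc (0 : ℝ) a × ℝ × Path | q.2.1 ≤ q.1 ∧ c ≤ X q.1 q.2.2} :=
      IsClosed.and (isClosed_le (by fun_prop) (by fun_prop)) (isClosed_le continuous_const
        (hX.comp_continuous (f := fun q : Icc (0 : ℝ) a × ℝ × Path => ((q.1 : ℝ), q.2.2)) (by fun_prop)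
          fun q => ⟨q.1.2.1, trivial⟩))
    have h2 := (hσ.meas.prodMk measurable_id) (isClosedMap_snd_of_compactSpace _ h1).measurableSet
    convert h2 using 1
    ext ω
    constructor
    · intro h
      rcases le_hitX (c := c) (hσT ω) (hc ω) with e | e
      · exact absurd (e ▸ h : T ≤ a) haT
      · exact ⟨(⟨_, (hσ.nonneg ω).trans (hm ω).1, h⟩, σ ω, ω), ⟨(hm ω).1, e⟩, rfl⟩
    · rintro ⟨⟨t, u, η⟩, h, e⟩
      obtain ⟨rfl, rfl⟩ : u = σ ω ∧ η = ω := Prod.ext_iff.1 e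
      exact (hle _ t h.1 h.2).trans t.2.2
  · have e : σ ω' = σ ω := hσ.agr ω ω' fun r hr => h r (hr.trans (hm ω).1)
    have hx : ∀ t, σ ω ≤ t → t ≤ hitX X c (σ ω) T ω → X t ω' = X t ω := fun t h1 h2 =>
      ha t ω ω' ((hσ.nonneg ω).trans h1) fun r hr => h r (hr.trans h2)
    have h1 : hitX X c (σ ω') T ω' ≤ hitX X c (σ ω) T ω := by
      rcases le_hitX (c := c) (hσT ω) (hc ω) with e' | e'
      · exact e'.symm ▸ (hm ω').2
      · exact hle ω' _ (e ▸ (hm ω).1) (by rwa [hx _ (hm ω).1 le_rfl])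
    refine le_antisymm h1 ?_
    rcases le_hitX (c := c) (hσT ω') (hc ω') with e' | e'
    · exact e'.symm ▸ (hm ω).2
    · exact hle ω _ (e ▸ (hm ω').1) (by rwa [hx _ (e ▸ (hm ω').1) h1] at e')

end Crest.Agent.R162.I
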