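import Crest.Agent.R162.W

/-! Row 162, block I: jets under the integral sign, and along a drifted path. -/

set_option autoImplicit false

open scoped ENNReal NNReal Topology
open Set Filter MeasureTheory Metric

noncomputable section
namespace Crest.Agent.R162.I

variable {E : Type} [NormedAddCommGroup E] [NormedSpace ℝ E] {t x : ℝ} {ω : Path}

/-- Recipe: `Path` is second countable.  Continuity: `continuousWithinAt_of_dominated` (eventually `p.1 ∈ Ico 0 T`).  `dx`, `dxx`: `hasDerivAt_integral_of_dominated_loc_of_deriv_le`.  `ds`: `hasDerivWithinAt_iff_tendsto_slope'` on `Ioi t` (`HasDerivWithinAt.Ici_of_Ioi`); the slopes are bounded by `b z` (`norm_image_sub_le_of_norm_deriv_right_le_segment` on `[t, r]`), `tendsto_integral_filter_of_dominated_convergence`. -/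
theorem at_int [CompleteSpace E] {α : Type} [MeasurableSpace α] {m : Measure α} {J : α → Jet E} {T : ℝ}
    {b : α → ℝ} (ht : t ∈ Ico 0 T) (hb : Integrable b m)
    (hJ : ∀ z, ∀ r ∈ Ico 0 T, ∀ y ω', (J z).At r y ω' ∧ (J z).Bd r y ω' (b z))
    (hm : ∀ r ∈ Ico 0 T, ∀ y ω', AEStronglyMeasurable (fun z => (J z).f r y ω') m ∧
      AEStronglyMeasurable (fun z => (J z).s r y ω') m ∧ AEStronglyMeasurable (fun z => (J z).x r y ω') m ∧
      AEStronglyMeasurable (fun z => (J z).xx r y ω') m) : (Jet.int m J).At t x ω := by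
  have hev : ∀ᶠ p : ℝ × ℝ × Path in 𝓝[Ici 0 ×ˢ univ] (t, x, ω), p.1 ∈ Ico 0 T :=
    (eventually_mem_nhdsWithin.and (mem_nhdsWithin_of_mem_nhds
      (continuous_fst.continuousAt.eventually_lt continuousAt_const ht.2))).mono fun p hp => ⟨hp.1.1, hp.2⟩
  have i0 : ∀ r ∈ Ico 0 T, ∀ y, Integrable (fun z => (J z).f r y ω) m := fun r hr y =>
    hb.mono' (hm r hr y ω).1 (Eventually.of_forall fun z => (hJ z r hr y ω).2.1)
  refine ⟨continuousWithinAt_of_dominated (hev.mono fun p hp => (hm _ hp _ _).1)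
      (hev.mono fun p hp => Eventually.of_forall fun z => (hJ z _ hp _ _).2.1) hb
      (Eventually.of_forall fun z => (hJ z t ht x ω).1.cf),
    continuousWithinAt_of_dominated (hev.mono fun p hp => (hm _ hp _ _).2.1)
      (hev.mono fun p hp => Eventually.of_forall fun z => (hJ z _ hp _ _).2.2.1) hb
      (Eventually.of_forall fun z => (hJ z t ht x ω).1.cs),
    continuousWithinAt_of_dominated (hev.mono fun p hp => (hm _ hp _ _).2.2.1)
      (hev.mono fun p hp => Eventually.of_forall fun z => (hJ z _ hp _ _).2.2.2.1) hb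
      (Eventually.of_forall fun z => (hJ z t ht x ω).1.cx),
    continuousWithinAt_of_dominated (hev.mono fun p hp => (hm _ hp _ _).2.2.2)
      (hev.mono fun p hp => Eventually.of_forall fun z => (hJ z _ hp _ _).2.2.2.2) hb
      (Eventually.of_forall fun z => (hJ z t ht x ω).1.cxx), ?_,
    (hasDerivAt_integral_of_dominated_loc_of_deriv_le (s := univ) univ_mem
      (Eventually.of_forall fun y => (hm t ht y ω).1) (i0 t ht x) (hm t ht x ω).2.2.1
      (Eventually.of_forall fun z y _ => (hJ z t ht y ω).2.2.2.1) hb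
      (Eventually.of_forall fun z y _ => (hJ z t ht y ω).1.dx)).2,
    (hasDerivAt_integral_of_dominated_loc_of_deriv_le (s := univ) univ_mem
      (Eventually.of_forall fun y => (hm t ht y ω).2.2.1)
      (hb.mono' (hm t ht x ω).2.2.1 (Eventually.of_forall fun z => (hJ z t ht x ω).2.2.2.1)) (hm t ht x ω).2.2.2
      (Eventually.of_forall fun z y _ => (hJ z t ht y ω).2.2.2.2) hb
      (Eventually.of_forall fun z y _ => (hJ z t ht y ω).1.dxx)).2⟩
  have hr : ∀ᶠ r in 𝓝[>] t, r ∈ Ioo t T := Ioo_mem_nhdsGT ht.2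
  have hI : ∀ r ∈ Ioo t T, ∀ u ∈ Icc t r, u ∈ Ico 0 T := fun r hr u hu => ⟨ht.1.trans hu.1, hu.2.trans_lt hr.2⟩
  refine HasDerivWithinAt.Ici_of_Ioi ((hasDerivWithinAt_iff_tendsto_slope' self_notMem_Ioi).2 ?_)
  refine (tendsto_integral_filter_of_dominated_convergence (F := fun r z => slope (fun r => (J z).f r x ω) t r) b
    (hr.mono fun r hr => ?_) (hr.mono fun r hr => Eventually.of_forall fun z => ?_) hb
    (Eventually.of_forall fun z => (hasDerivWithinAt_iff_tendsto_slope' self_notMem_Ioi).1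
      ((hJ z t ht x ω).1.ds.mono Ioi_subset_Ici_self))).congr' (hr.mono fun r hr => ?_)
  · exact ((hm r (hI r hr r ⟨hr.1.le, le_rfl⟩) x ω).1.sub (hm t ht x ω).1).const_smul (r - t)⁻¹
  · have := norm_image_sub_le_of_norm_deriv_right_le_segment (f := fun r => (J z).f r x ω)
      (f' := fun r => (J z).s r x ω) (C := b z) (a := t) (b := r)
      (fun u hu => ContinuousWithinAt.comp (f := fun u : ℝ => (u, x, ω)) (hJ z u (hI r hr u hu) x ω).1.cf
        (by fun_prop) fun v hv => ⟨(hI r hr v hv).1, trivial⟩)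
      (fun u hu => (hJ z u (hI r hr u (Ico_subset_Icc_self hu)) x ω).1.ds)
      (fun u hu => (hJ z u (hI r hr u (Ico_subset_Icc_self hu)) x ω).2.2.1) r ⟨hr.1.le, le_rfl⟩
    rwa [slope_def_module, norm_smul, norm_inv, Real.norm_of_nonneg (sub_pos.2 hr.1).le,
      inv_mul_le_iff₀ (sub_pos.2 hr.1), mul_comm]
  · simp only [slope_def_module, Jet.int]
    rw [integral_smul, integral_sub (i0 r (hI r hr r ⟨hr.1.le, le_rfl⟩) x) (i0 t ht x)]

/-- Recipe: only `ds` needs work: with `y r = x + (h₀ + c r)`, `f r (y r) - f t (y t) = (f r (y r) - f r (y t)) + (f r (y t) - f t (y t))`; on the first bracket use the mean value inequality in space for `v ↦ f r v - v • x₀` (`Convex.norm_image_sub_le_of_norm_hasDerivWithin_le` on a small ball, `J.x` is continuous at the point); `hasDerivWithinAt_iff_isLittleO`. -/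
theorem at_drift {J : Jet E} (h : Path) (h₀ c : ℝ) (ht : 0 ≤ t)
    (hJ : ∀ᶠ p in 𝓝[Ici 0 ×ˢ univ] ((t, x + (h₀ + c * t), ω + h) : ℝ × ℝ × Path), J.At p.1 p.2.1 p.2.2) :
    (J.drift h h₀ c).At t x ω := by
  have h0 : J.At t (x + (h₀ + c * t)) (ω + h) := mem_of_mem_nhdsWithin
    (s := Ici 0 ×ˢ univ) (a := ((t, x + (h₀ + c * t), ω + h) : ℝ × ℝ × Path)) ⟨ht, trivial⟩ hJ
  have hc : ∀ {f : ℝ → ℝ → Path → E}, CtsAt f t (x + (h₀ + c * t)) (ω + h) →
      CtsAt (fun t x ω => f t (x + (h₀ + c * t)) (ω + h)) t x ω := fun hf =>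
    ContinuousWithinAt.comp (f := fun p : ℝ × ℝ × Path => (p.1, p.2.1 + (h₀ + c * p.1), p.2.2 + h))
      (x := (t, x, ω)) hf (Continuous.continuousWithinAt (by fun_prop)) fun _ hp => ⟨hp.1, trivial⟩
  refine ⟨hc h0.cf, (hc h0.cs).add ((hc h0.cx).const_smul c), hc h0.cx, hc h0.cxx, ?_,
    h0.dx.comp_add_const _ _, h0.dxx.comp_add_const _ _⟩
  set y := x + (h₀ + c * t) with hy
  set η := ω + h
  have key : HasDerivWithinAt (fun r => J.f r (x + (h₀ + c * r)) η - J.f r y η) (c • J.x t y η) (Ici t) t := by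
    refine hasDerivWithinAt_iff_isLittleO.2 (Asymptotics.isLittleO_iff.2 fun ε hε => ?_)
    have hε' : 0 < ε / (|c| + 1) := by positivity
    have h1 : ∀ᶠ p : ℝ × ℝ in 𝓝[Ici t] t ×ˢ 𝓝 y, J.At p.1 p.2 η ∧ dist (J.x p.1 p.2 η) (J.x t y η) < ε / (|c| + 1) := by
      refine Tendsto.eventually (f := fun p : ℝ × ℝ => ((p.1, p.2, η) : ℝ × ℝ × Path)) ?_
        (hJ.and (Metric.tendsto_nhds.1 h0.cx _ hε'))
      refine tendsto_nhdsWithin_iff.2 ⟨?_, (eventually_mem_nhdsWithin.prod_inl _).mono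
        fun p hp => ⟨ht.trans hp, trivial⟩⟩
      refine (Continuous.tendsto (f := fun p : ℝ × ℝ => ((p.1, p.2, η) : ℝ × ℝ × Path)) (by fun_prop)
        (t, y)).mono_left ?_
      rw [nhds_prod_eq]
      exact prod_mono nhdsWithin_le_nhds le_rfl
    obtain ⟨A, hA, B, hB, H⟩ := eventually_prod_iff.1 h1
    obtain ⟨δ, hδ, hB'⟩ := Metric.eventually_nhds_iff_ball.1 hB
    have h2 : ∀ᶠ r in 𝓝[Ici t] t, x + (h₀ + c * r) ∈ ball y δ :=
      mem_nhdsWithin_of_mem_nhds ((Continuous.continuousAt (f := fun r => x + (h₀ + c * r))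
        (by fun_prop)).preimage_mem_nhds (ball_mem_nhds y hδ))
    filter_upwards [hA, h2] with r a1 a2
    have := (convex_ball y δ).norm_image_sub_le_of_norm_hasDerivWithin_le
      (f := fun v => J.f r v η - v • J.x t y η) (f' := fun v => J.x r v η - J.x t y η) (C := ε / (|c| + 1))
      (fun v hv => (((H a1 (hB' v hv)).1.dx.sub ((hasDerivAt_id v).smul_const (J.x t y η))).congr_deriv
        (by rw [one_smul])).hasDerivWithinAt)
      (fun v hv => by simpa only [dist_eq_norm] using (H a1 (hB' v hv)).2.le) (mem_ball_self hδ) a2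
    have e1 : x + (h₀ + c * r) - y = c * (r - t) := by rw [hy]; ring
    have e2 : J.f r (x + (h₀ + c * r)) η - J.f r y η - (J.f t y η - J.f t y η) - (r - t) • c • J.x t y η =
        J.f r (x + (h₀ + c * r)) η - (x + (h₀ + c * r)) • J.x t y η - (J.f r y η - y • J.x t y η) := by
      rw [smul_smul, mul_comm (r - t), ← e1, sub_smul]
      abel
    rw [e2]
    refine this.trans ?_
    rw [e1, norm_mul, ← mul_assoc]
    refine mul_le_mul_of_nonneg_right ?_ (norm_nonneg _)
    rw [div_mul_eq_mul_div, div_le_iff₀ (by positivity), Real.norm_eq_abs]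
    exact mul_le_mul_of_nonneg_left (by linarith) hε.le
  exact (h0.ds.add key).congr (fun r _ => (add_sub_cancel _ _).symm) (add_sub_cancel _ _).symm

end Crest.Agent.R162.I
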