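import Crest.Agent.R162.W

/-! Row 162, block I: continuity of primitives. -/

set_option autoImplicit false

open scoped ENNReal NNReal Topology
open Set Filter MeasureTheory Metric

noncomputable section
namespace Crest.Agent.R162.I

/-- joint continuity of primitives on an interval `S` with a retraction `ρ` -/
theorem cont_acc {E : Type} [NormedAddCommGroup E] [NormedSpace ℝ E] {g : ℝ → Path → E} {S : Set ℝ}
    (hS : S.OrdConnected) {ρ : ℝ → ℝ} (hρ : Continuous ρ) (h1 : ∀ u, ρ u ∈ S) (h2 : ∀ u ∈ S, ρ u = u) {a : ℝ}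
    (ha : a ∈ S) (hg : ContinuousOn (fun p : ℝ × Path => g p.1 p.2) (S ×ˢ univ)) :
    ContinuousOn (fun p : ℝ × Path => ∫ u in a..p.1, g u p.2) (S ×ˢ univ) := by
  have hc : Continuous (Function.uncurry fun (ω : Path) (u : ℝ) => g (ρ u) ω) :=
    hg.comp_continuous (f := fun p : Path × ℝ => (ρ p.2, p.1)) (by fun_prop) fun p => ⟨h1 _, trivial⟩
  have h3 := (intervalIntegral.continuous_parametric_primitive_of_continuous (μ := volume) (a₀ := a) hc).comp
    continuous_swap
  refine h3.continuousOn.congr fun p hp => intervalIntegral.integral_congr fun u hu => ?_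
  exact congrArg (fun v => g v p.2) (h2 u (hS.uIcc_subset ha hp.1 hu)).symm

end Crest.Agent.R162.I
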