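import Crest.Agent.R162.I.Acc

/-! Row 162, block I: elementary jet calculus. -/

set_option autoImplicit false

open scoped ENNReal NNReal Topology
open Set Filter MeasureTheory Metric

noncomputable section
namespace Crest.Agent.R162.I

variable {E : Type} [NormedAddCommGroup E] [NormedSpace ℝ E] {t x : ℝ} {ω : Path}

/-- Recipe: componentwise `ContinuousWithinAt.add`, `HasDerivAt.add`. -/
theorem at_add {J K : Jet E} (hJ : J.At t x ω) (hK : K.At t x ω) : (J.add K).At t x ω := by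
  exact ⟨hJ.cf.add hK.cf, hJ.cs.add hK.cs, hJ.cx.add hK.cx, hJ.cxx.add hK.cxx, hJ.ds.add hK.ds, hJ.dx.add hK.dx,
    hJ.dxx.add hK.dxx⟩

/-- Recipe: `ContinuousWithinAt.mul`, `HasDerivAt.mul` (twice for `dxx`). -/
theorem at_mul {A : Type} [NormedRing A] [NormedAlgebra ℝ A] {J K : Jet A} (hJ : J.At t x ω)
    (hK : K.At t x ω) : (J.mul K).At t x ω := by
  exact ⟨hJ.cf.mul hK.cf, (hJ.cs.mul hK.cf).add (hJ.cf.mul hK.cs), (hJ.cx.mul hK.cf).add (hJ.cf.mul hK.cx),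
    ((hJ.cxx.mul hK.cf).add (hJ.cx.mul hK.cx)).add ((hJ.cx.mul hK.cx).add (hJ.cf.mul hK.cxx)),
    hJ.ds.mul hK.ds, hJ.dx.mul hK.dx, (hJ.dxx.mul hK.dx).add (hJ.dx.mul hK.dxx)⟩

theorem at_const {c : Path → E} (hc : ContinuousAt c ω) : (Jet.const c).At t x ω := by
  exact ⟨(hc.comp_of_eq (f := fun p : ℝ × ℝ × Path => p.2.2) (by fun_prop) rfl).continuousWithinAt,
    continuousWithinAt_const, continuousWithinAt_const, continuousWithinAt_const,
    hasDerivWithinAt_const _ _ _, hasDerivAt_const _ _, hasDerivAt_const _ _⟩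

theorem at_X : Jet.X.At t x ω := by
  exact ⟨(continuous_fst.comp continuous_snd).continuousWithinAt,
    continuousWithinAt_const, continuousWithinAt_const, continuousWithinAt_const,
    hasDerivWithinAt_const _ _ _, hasDerivAt_id _, hasDerivAt_const _ _⟩

theorem at_fv {a a' : ℝ → Path → E}
    (ha : ContinuousWithinAt (fun p : ℝ × Path => a p.1 p.2) (Ici 0 ×ˢ univ) (t, ω))
    (ha' : ContinuousWithinAt (fun p : ℝ × Path => a' p.1 p.2) (Ici 0 ×ˢ univ) (t, ω))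
    (hd : HasDerivWithinAt (fun r => a r ω) (a' t ω) (Ici t) t) : (Jet.fv a a').At t x ω := by
  have hp : ContinuousWithinAt (fun p : ℝ × ℝ × Path => (p.1, p.2.2)) (Ici 0 ×ˢ univ) (t, x, ω) :=
    Continuous.continuousWithinAt (by fun_prop)
  exact ⟨ha.comp_of_eq hp (fun _ h => ⟨h.1, trivial⟩) rfl, ha'.comp_of_eq hp (fun _ h => ⟨h.1, trivial⟩) rfl,
    continuousWithinAt_const, continuousWithinAt_const, hd, hasDerivAt_const _ _, hasDerivAt_const _ _⟩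

/-- Recipe: `cont_acc` with `ρ = (max · 0)`; the derivative by `intervalIntegral.integral_hasDerivWithinAt_right` or, for `u ↦ a' (max u 0) ω` (continuous on `ℝ`), `Continuous.deriv_integral`/`integral_hasDerivAt_right` and `HasDerivWithinAt.congr`; then `at_fv`. -/
theorem at_acc [CompleteSpace E] {a' : ℝ → Path → E} {t₀ : ℝ} (ht₀ : 0 ≤ t₀) (ht : 0 ≤ t)
    (ha' : ContinuousOn (fun p : ℝ × Path => a' p.1 p.2) (Ici 0 ×ˢ univ)) :
    (Jet.fv (fun r ω => ∫ u in t₀..r, a' u ω) a').At t x ω := by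
  refine at_fv (cont_acc ordConnected_Ici (ρ := fun u => max u 0) (by fun_prop) (fun u => le_max_right u 0)
    (fun _ hu => max_eq_left hu) ht₀ ha' (t, ω) ⟨ht, trivial⟩) (ha' (t, ω) ⟨ht, trivial⟩) ?_
  have hc : Continuous fun u => a' (max u 0) ω :=
    ha'.comp_continuous (f := fun u => (max u 0, ω)) (by fun_prop) fun u => ⟨le_max_right u 0, trivial⟩
  have e : ∀ r, 0 ≤ r → ∫ u in t₀..r, a' u ω = ∫ u in t₀..r, a' (max u 0) ω := fun r hr =>
    intervalIntegral.integral_congr fun u hu => by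
      simp only [max_eq_left (ordConnected_Ici.uIcc_subset ht₀ hr hu)]
  have h2 := (hc.integral_hasStrictDerivAt t₀ t).hasDerivAt.hasDerivWithinAt (s := Ici t)
  rw [max_eq_left ht] at h2
  exact h2.congr (fun r hr => e r (ht.trans hr)) (e t ht)

theorem at_clm {F : Type} [NormedAddCommGroup F] [NormedSpace ℝ F] (L : E →L[ℝ] F) {J : Jet E}
    (hJ : J.At t x ω) : (J.clm L).At t x ω := by
  exact ⟨L.continuous.continuousAt.comp_continuousWithinAt hJ.cf,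
    L.continuous.continuousAt.comp_continuousWithinAt hJ.cs,
    L.continuous.continuousAt.comp_continuousWithinAt hJ.cx,
    L.continuous.continuousAt.comp_continuousWithinAt hJ.cxx, L.hasFDerivAt.comp_hasDerivWithinAt t hJ.ds,
    L.hasFDerivAt.comp_hasDerivAt x hJ.dx, L.hasFDerivAt.comp_hasDerivAt x hJ.dxx⟩

/-- Recipe: `HasDerivAt.comp`, `HasDerivAt.comp_hasDerivWithinAt` (they allow `𝕜' = A`), `ContinuousAt.comp_continuousWithinAt`. -/
theorem at_comp_gen {A : Type} [NontriviallyNormedField A] [NormedAlgebra ℝ A] {φ φ' φ'' : A → A} {J : Jet A}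
    (hJ : J.At t x ω) (h1 : HasDerivAt φ (φ' (J.f t x ω)) (J.f t x ω))
    (h2 : HasDerivAt φ' (φ'' (J.f t x ω)) (J.f t x ω)) (h3 : ContinuousAt φ'' (J.f t x ω)) :
    (J.comp φ φ' φ'').At t x ω := by
  have c0 := h1.continuousAt.comp_continuousWithinAt (f := fun p : ℝ × ℝ × Path => J.f p.1 p.2.1 p.2.2)
    (x := (t, x, ω)) hJ.cf
  have c1 := h2.continuousAt.comp_continuousWithinAt (f := fun p : ℝ × ℝ × Path => J.f p.1 p.2.1 p.2.2)
    (x := (t, x, ω)) hJ.cf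
  have c2 := h3.comp_continuousWithinAt (f := fun p : ℝ × ℝ × Path => J.f p.1 p.2.1 p.2.2)
    (x := (t, x, ω)) hJ.cf
  exact ⟨c0, c1.mul hJ.cs, c1.mul hJ.cx, ((c2.mul hJ.cx).mul hJ.cx).add (c1.mul hJ.cxx),
    h1.comp_hasDerivWithinAt t hJ.ds, h1.comp x hJ.dx, (h2.comp x hJ.dx).mul hJ.dxx⟩

/-- Recipe: instance of `at_comp_gen`. -/
theorem at_comp {φ φ' φ'' : ℝ → ℝ} {J : Jet ℝ} (hJ : J.At t x ω)
    (h1 : ∀ᶠ u in 𝓝 (J.f t x ω), HasDerivAt φ (φ' u) u) (h2 : ∀ᶠ u in 𝓝 (J.f t x ω), HasDerivAt φ' (φ'' u) u)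
    (h3 : ContinuousAt φ'' (J.f t x ω)) : (J.comp φ φ' φ'').At t x ω := by
  exact at_comp_gen hJ h1.self_of_nhds h2.self_of_nhds h3

/-- Recipe: instance of `at_comp_gen`. -/
theorem at_compC {φ φ' φ'' : ℂ → ℂ} {J : Jet ℂ} (hJ : J.At t x ω)
    (h1 : ∀ᶠ u in 𝓝 (J.f t x ω), HasDerivAt φ (φ' u) u) (h2 : ∀ᶠ u in 𝓝 (J.f t x ω), HasDerivAt φ' (φ'' u) u)
    (h3 : ContinuousAt φ'' (J.f t x ω)) : (J.comp φ φ' φ'').At t x ω := by
  exact at_comp_gen hJ h1.self_of_nhds h2.self_of_nhds h3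

/-- Recipe: `h` holds at the point (`mem_of_mem_nhdsWithin`) and along the curves `r ↦ (r, x, ω)` on `𝓝[Ici t] t`, `y ↦ (t, y, ω)` on `𝓝 x`; `congr_of_eventuallyEq`. -/
theorem at_congr {J K : Jet E} (ht : 0 ≤ t) (hJ : J.At t x ω)
    (h : ∀ᶠ p in 𝓝[Ici 0 ×ˢ univ] ((t, x, ω) : ℝ × ℝ × Path), K.f p.1 p.2.1 p.2.2 = J.f p.1 p.2.1 p.2.2 ∧ K.s p.1 p.2.1 p.2.2 = J.s p.1 p.2.1 p.2.2 ∧
      K.x p.1 p.2.1 p.2.2 = J.x p.1 p.2.1 p.2.2 ∧ K.xx p.1 p.2.1 p.2.2 = J.xx p.1 p.2.1 p.2.2) :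
    K.At t x ω := by
  have h0 := mem_of_mem_nhdsWithin (s := Ici 0 ×ˢ univ) (a := ((t, x, ω) : ℝ × ℝ × Path)) ⟨ht, trivial⟩ h
  have h1 : Tendsto (fun r : ℝ => (r, x, ω)) (𝓝[Ici t] t) (𝓝[Ici 0 ×ˢ univ] (t, x, ω)) :=
    ContinuousWithinAt.tendsto_nhdsWithin (f := fun r : ℝ => (r, x, ω)) (by fun_prop)
      fun r hr => ⟨ht.trans hr, trivial⟩
  have h2 : Tendsto (fun y : ℝ => (t, y, ω)) (𝓝 x) (𝓝[Ici 0 ×ˢ univ] (t, x, ω)) :=
    tendsto_nhdsWithin_iff.2 ⟨Continuous.tendsto (f := fun y : ℝ => (t, y, ω)) (by fun_prop) x,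
      Eventually.of_forall fun _ => ⟨ht, trivial⟩⟩
  exact ⟨hJ.cf.congr_of_eventuallyEq (h.mono fun _ h => h.1) h0.1,
    hJ.cs.congr_of_eventuallyEq (h.mono fun _ h => h.2.1) h0.2.1,
    hJ.cx.congr_of_eventuallyEq (h.mono fun _ h => h.2.2.1) h0.2.2.1,
    hJ.cxx.congr_of_eventuallyEq (h.mono fun _ h => h.2.2.2) h0.2.2.2,
    (hJ.ds.congr_of_eventuallyEq ((h1.eventually h).mono fun _ h => h.1) h0.1).congr_deriv h0.2.1.symm,
    (hJ.dx.congr_of_eventuallyEq ((h2.eventually h).mono fun _ h => h.1)).congr_deriv h0.2.2.1.symm,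
    (hJ.dxx.congr_of_eventuallyEq ((h2.eventually h).mono fun _ h => h.2.2.1)).congr_deriv h0.2.2.2.symm⟩

/-- Recipe: `at_congr` with the jet `Jet.const 0`. -/
theorem at_mul_of_zero {A : Type} [NormedRing A] [NormedAlgebra ℝ A] {J : Jet A} (K : Jet A) (ht : 0 ≤ t)
    (h : ∀ᶠ p in 𝓝[Ici 0 ×ˢ univ] ((t, x, ω) : ℝ × ℝ × Path), J.f p.1 p.2.1 p.2.2 = 0 ∧ J.s p.1 p.2.1 p.2.2 = 0 ∧ J.x p.1 p.2.1 p.2.2 = 0 ∧
      J.xx p.1 p.2.1 p.2.2 = 0) : (J.mul K).At t x ω := by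
  refine at_congr ht (at_const (c := fun _ => (0 : A)) continuousAt_const) (h.mono fun p hp => ?_)
  simp [Jet.mul, Jet.const, hp]

end Crest.Agent.R162.I
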